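import Vale.Agent.P097.H420.JCount
import Vale.Agent.P097.H881.Sc3

/-! # P097, case [c], block (W): division by a holomorphic function costs a power

`|G| ≤ M`, `|G p| ≤ A` on `ball b R`, `G b ≠ 0` ⟹ `|p z| ≤ A M / |G b| ^ 2` for `|z - b| ≤ R / 8`
(any complex normed space).  Used with `G = F' ∘ θ_j` and `p = p_k` at lateral points, R2 points
(`F' = 0`) anywhere. -/

set_option linter.all false

open Complex Metric Filter Topology Set

namespace Vale.Agent.P097.H557.W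

open Vale.Agent.P097.H420

/-- divide `G` (and `G p`) by the Blaschke factors of the zeros of `G` in `|z| ≤ 1 / 2` -/
theorem clean {p : ℂ → ℂ} {A M : ℝ} (hp : DifferentiableOn ℂ p (ball 0 1)) : ∀ (n : ℕ) (G : ℂ → ℂ),
    DifferentiableOn ℂ G (ball 0 1) → (∀ z ∈ ball (0 : ℂ) 1, ‖G z‖ ≤ M) →
    (∀ z ∈ ball (0 : ℂ) 1, ‖G z * p z‖ ≤ A) → G 0 ≠ 0 → M * (1 / 2) ^ n ≤ ‖G 0‖ →
    ∃ g : ℂ → ℂ, DifferentiableOn ℂ g (ball 0 1) ∧ (∀ z ∈ ball (0 : ℂ) 1, ‖g z‖ ≤ M) ∧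
      (∀ z ∈ ball (0 : ℂ) 1, ‖g z * p z‖ ≤ A) ∧ (∀ z ∈ closedBall (0 : ℂ) (1 / 2), g z ≠ 0) ∧
      ‖G 0‖ ≤ ‖g 0‖ := by
  intro n
  induction n with
  | zero =>
    intro G hG hM hA h0 hn
    refine ⟨G, hG, hM, hA, fun a ha h => ?_, le_rfl⟩
    have ha2 : ‖a‖ ≤ 1 / 2 := by simpa using ha
    have ha1 : a ∈ ball (0 : ℂ) 1 := by rw [mem_ball_zero_iff]; linarith
    obtain ⟨g, hg1, hg2, hg3⟩ := divide_zero hG hM ha1 h
    have h1 := hg3 0 (mem_ball_self one_pos)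
    have h2 : ph a 0 = ‖a‖ := by simp [ph]
    rw [h2] at h1
    have h3 := hg2 0 (mem_ball_self one_pos)
    have h4 : 0 < ‖G 0‖ := norm_pos_iff.2 h0
    rw [pow_zero, mul_one] at hn
    have h5 : ‖a‖ * ‖g 0‖ ≤ 1 / 2 * M := mul_le_mul ha2 h3 (norm_nonneg _) (by norm_num)
    linarith
  | succ n ih =>
    intro G hG hM hA h0 hn
    by_cases hz : ∀ z ∈ closedBall (0 : ℂ) (1 / 2), G z ≠ 0
    · exact ⟨G, hG, hM, hA, hz, le_rfl⟩
    push Not at hz
    obtain ⟨a, ha, h⟩ := hz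
    have ha2 : ‖a‖ ≤ 1 / 2 := by simpa using ha
    have ha1 : a ∈ ball (0 : ℂ) 1 := by rw [mem_ball_zero_iff]; linarith
    obtain ⟨g, hg1, hg2, hg3⟩ := divide_zero hG hM ha1 h
    obtain ⟨f, hf1, hf2, hf3⟩ := divide_zero (f := fun z => G z * p z) (hG.mul hp) hA ha1
      (by simp only [h, zero_mul])
    have h1 := hg3 0 (mem_ball_self one_pos)
    have h2 : ph a 0 = ‖a‖ := by simp [ph]
    rw [h2] at h1
    have h4 : 0 < ‖G 0‖ := norm_pos_iff.2 h0
    have h5 : ‖a‖ * ‖g 0‖ ≤ 1 / 2 * ‖g 0‖ := mul_le_mul_of_nonneg_right ha2 (norm_nonneg _)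
    have h6 : 2 * ‖G 0‖ ≤ ‖g 0‖ := by linarith
    -- the product off `a`
    have hoff : ∀ z ∈ ball (0 : ℂ) 1, z ≠ a → ‖g z * p z‖ ≤ A := by
      intro z hz hza
      have hph : 0 < ph a z := by
        have h7 : 0 < ‖z - a‖ := norm_pos_iff.2 (sub_ne_zero.2 hza)
        have h8 : 0 < ‖1 - (starRingEnd ℂ) a * z‖ := norm_pos_iff.2
          (one_sub_ne (mem_ball_zero_iff.1 ha1) (mem_ball_zero_iff.1 hz))
        exact div_pos h7 h8
      have e1 := hg3 z hz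
      have e2 := hf3 z hz
      simp only [norm_mul] at e2
      rw [e1, mul_assoc] at e2
      have e3 := mul_left_cancel₀ hph.ne' e2
      rw [norm_mul, e3]
      exact hf2 z hz
    have hall : ∀ z ∈ ball (0 : ℂ) 1, ‖g z * p z‖ ≤ A := by
      intro z hz
      by_cases hza : z = a
      · subst hza
        have hc : ContinuousAt (fun w => ‖g w * p w‖) z :=
          ((hg1.mul hp).continuousOn.continuousAt (isOpen_ball.mem_nhds hz)).norm
        have hc' : Tendsto (fun w => ‖g w * p w‖) (𝓝[≠] z) (𝓝 ‖g z * p z‖) :=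
          hc.tendsto.mono_left nhdsWithin_le_nhds
        refine le_of_tendsto hc' ?_
        filter_upwards [self_mem_nhdsWithin, nhdsWithin_le_nhds (isOpen_ball.mem_nhds hz)] with
          w hw1 hw2
        exact hoff w hw2 hw1
      · exact hoff z hz hza
    obtain ⟨k, k1, k2, k3, k4, k5⟩ := ih g hg1 hg2 hall (norm_pos_iff.1 (by linarith)) (by
      rw [pow_succ] at hn
      linarith)
    exact ⟨k, k1, k2, k3, k4, by linarith⟩

/-- one variable -/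
theorem div_one {p G : ℂ → ℂ} {z : ℂ} {A M : ℝ} (hp : DifferentiableOn ℂ p (ball 0 1))
    (hG : DifferentiableOn ℂ G (ball 0 1)) (hM : ∀ y ∈ ball (0 : ℂ) 1, ‖G y‖ ≤ M)
    (hA : ∀ y ∈ ball (0 : ℂ) 1, ‖G y * p y‖ ≤ A) (h0 : G 0 ≠ 0) (hz : ‖z‖ ≤ 1 / 8) :
    ‖p z‖ ≤ A * M / ‖G 0‖ ^ 2 := by
  have hG0 : 0 < ‖G 0‖ := norm_pos_iff.2 h0
  have hGM : ‖G 0‖ ≤ M := hM 0 (mem_ball_self one_pos)
  have hM0 : 0 < M := hG0.trans_le hGM
  have hA0 : 0 ≤ A := (norm_nonneg _).trans (hA 0 (mem_ball_self one_pos))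
  obtain ⟨n, hn⟩ := exists_pow_lt_of_lt_one (show 0 < ‖G 0‖ / M by positivity)
    (show (1 / 2 : ℝ) < 1 by norm_num)
  obtain ⟨g, g1, g2, g3, g4, g5⟩ := clean hp n G hG hM hA h0 (by
    rw [lt_div_iff₀ hM0] at hn
    linarith)
  have hg0 : 0 < ‖g 0‖ := hG0.trans_le g5
  have hsub : ball (0 : ℂ) (1 / 2) ⊆ ball 0 1 := ball_subset_ball (by norm_num)
  have hne : ∀ y ∈ ball (0 : ℂ) (1 / 2), g y ≠ 0 := fun y hy => g4 y (ball_subset_closedBall hy)
  obtain ⟨a, ha⟩ : ∃ a : ℂ, exp a = g 0 := ⟨Complex.log (g 0), Complex.exp_log (norm_pos_iff.1 hg0)⟩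
  obtain ⟨h, hh1, hh2, hh3⟩ := H699.exists_log (c := 0) (by norm_num) (g1.mono hsub) hne ha
  have hzb : z ∈ ball (0 : ℂ) (1 / 2) := by rw [mem_ball_zero_iff]; linarith
  have hre : ∀ y ∈ ball (0 : ℂ) (1 / 2), ‖g y‖ = Real.exp (h y).re := fun y hy => by
    rw [← hh3 y hy, Complex.norm_exp]
  -- every `M' > M`
  have key : ∀ M' : ℝ, M < M' → ‖p z‖ ≤ A * M' / ‖G 0‖ ^ 2 := by
    intro M' hM'
    have hM'0 : 0 < M' := hM0.trans hM'
    have hha := H699.harnack (u := fun y => ((Real.log M' : ℝ) : ℂ) - h y) (c := 0) (R := 1 / 2)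
      ((differentiableOn_const _).sub hh1) (fun y hy => by
        rw [sub_re, ofReal_re]
        have h1 : Real.exp (h y).re < M' := by
          rw [← hre y hy]; exact (g2 y (hsub hy)).trans_lt hM'
        have h2 := (Real.lt_log_iff_exp_lt hM'0).2 h1
        linarith) (z := z) (by rw [sub_zero]; linarith) (by norm_num)
    have h2 := hha.2
    simp only [sub_re, ofReal_re] at h2
    have e0 := hre 0 (mem_ball_self (by norm_num))
    have ez := hre z hzb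
    -- `‖g z‖ ≥ ‖g 0‖ ^ 2 / M'`
    have h3 : ‖g 0‖ ^ 2 ≤ ‖g z‖ * M' := by
      rw [e0, ez, ← Real.exp_log hM'0, ← Real.exp_add, ← Real.exp_nat_mul]
      apply Real.exp_le_exp.2
      push_cast
      linarith
    have h4 : ‖G 0‖ ^ 2 ≤ ‖g z‖ * M' := (pow_le_pow_left₀ hG0.le g5 2).trans h3
    have h5 := g3 z (hsub hzb)
    rw [norm_mul] at h5
    rw [le_div_iff₀ (by positivity)]
    calc ‖p z‖ * ‖G 0‖ ^ 2 ≤ ‖p z‖ * (‖g z‖ * M') := mul_le_mul_of_nonneg_left h4 (norm_nonneg _)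
      _ = (‖g z‖ * ‖p z‖) * M' := by ring
      _ ≤ A * M' := mul_le_mul_of_nonneg_right h5 hM'0.le
  have hlim : Tendsto (fun M' : ℝ => A * M' / ‖G 0‖ ^ 2) (𝓝[>] M) (𝓝 (A * M / ‖G 0‖ ^ 2)) := by
    have : Continuous fun M' : ℝ => A * M' / ‖G 0‖ ^ 2 := by fun_prop
    exact (this.tendsto M).mono_left nhdsWithin_le_nhds
  refine ge_of_tendsto hlim ?_
  filter_upwards [self_mem_nhdsWithin] with M' hM' using key M' hM'

section
variable {E : Type*} [NormedAddCommGroup E] [NormedSpace ℂ E]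

/-- **division by a holomorphic function costs a power** -/
theorem div_bound {p G : E → ℂ} {b z : E} {R A M : ℝ} (hR : 0 < R)
    (hp : DifferentiableOn ℂ p (ball b R)) (hG : DifferentiableOn ℂ G (ball b R))
    (hM : ∀ y ∈ ball b R, ‖G y‖ ≤ M) (hA : ∀ y ∈ ball b R, ‖G y * p y‖ ≤ A) (h0 : G b ≠ 0)
    (hz : ‖z - b‖ ≤ R / 8) : ‖p z‖ ≤ A * M / ‖G b‖ ^ 2 := by
  set φ : ℂ → E := fun t => b + t • ((8 : ℂ) • (z - b)) with hφ
  have hmap : MapsTo φ (ball 0 1) (ball b R) := by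
    intro t ht
    rw [mem_ball_zero_iff] at ht
    rw [hφ, mem_ball, dist_eq_norm, add_sub_cancel_left, norm_smul, norm_smul]
    have h8 : ‖(8 : ℂ)‖ = 8 := by simp
    rw [h8]
    calc ‖t‖ * (8 * ‖z - b‖) ≤ ‖t‖ * R := by
          apply mul_le_mul_of_nonneg_left _ (norm_nonneg _)
          linarith
      _ < 1 * R := mul_lt_mul_of_pos_right ht hR
      _ = R := one_mul R
  have hφd : DifferentiableOn ℂ φ (ball 0 1) := by rw [hφ]; fun_prop
  have e0 : φ 0 = b := by simp [hφ]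
  have e1 : φ (1 / 8) = z := by
    simp only [hφ, smul_smul]
    norm_num
  have key := div_one (p := p ∘ φ) (G := G ∘ φ) (z := 1 / 8) (A := A) (M := M)
    (hp.comp hφd hmap) (hG.comp hφd hmap) (fun y hy => hM _ (hmap hy)) (fun y hy => hA _ (hmap hy))
    (by rw [Function.comp, e0]; exact h0) (by norm_num)
  rw [Function.comp_apply, Function.comp_apply, e0, e1] at key
  exact key

open Vale.Agent.P097.H881

/-- the same with the state of a chain -/
theorem div_state {U : Set E} {M : ℝ} {F G p : E → ℂ} {b z : E} {R A : ℝ} (hR : 0 < R)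
    (hU : ball b R ⊆ U) (h : RG U M F G) (hp : DifferentiableOn ℂ p (ball b R))
    (hA : ∀ y ∈ ball b R, ‖G y * p y‖ ≤ A) (h0 : G b ≠ 0) (hz : ‖z - b‖ ≤ R / 8) :
    ‖p z‖ ≤ A / M * Real.exp (2 * St M F G b) := by
  have hG0 : 0 < ‖G b‖ := norm_pos_iff.2 h0
  have hM0 : 0 < M := hG0.trans_le (h.bd b (hU (mem_ball_self hR)))
  have hA0 : 0 ≤ A := (norm_nonneg _).trans (hA b (mem_ball_self hR))
  refine (div_bound hR hp (h.hG.mono hU) (fun y hy => h.bd y (hU hy)) hA h0 hz).trans ?_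
  have h1 : Real.log (M / ‖G b‖) ≤ St M F G b := by
    unfold St
    linarith [abs_nonneg (F b).re]
  have h2 : M / ‖G b‖ ≤ Real.exp (St M F G b) :=
    (Real.log_le_iff_le_exp (by positivity)).1 h1
  have h3 : (M / ‖G b‖) ^ 2 ≤ Real.exp (2 * St M F G b) := by
    rw [show (2 : ℝ) * St M F G b = (2 : ℕ) * St M F G b by norm_num, Real.exp_nat_mul]
    exact pow_le_pow_left₀ (by positivity) h2 2
  have h4 : A * M / ‖G b‖ ^ 2 = A / M * (M / ‖G b‖) ^ 2 := by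
    field_simp
  rw [h4]
  exact mul_le_mul_of_nonneg_left h3 (by positivity)

/-- **the chain bounds `p` at every point near the end** -/
theorem JR.div {U : Set E} {a : ℝ} {z w : E} {ρ R : ℝ} (h : JR U a z ρ w (R / 80))
    (hR : 0 < R) (hU : ball w R ⊆ U) {M : ℝ} {F G p : E → ℂ} (hRG : RG U M F G) {z' : E}
    (hz' : ‖z' - z‖ ≤ ρ) (h0 : G z' ≠ 0) {A : ℝ}
    (hp : DifferentiableOn ℂ p (ball w R)) (hA : ∀ y ∈ ball w R, ‖G y * p y‖ ≤ A) {v : E}
    (hv : ‖v - w‖ ≤ R / 80) : ‖p v‖ ≤ A / M * Real.exp (2 * (a * St M F G z')) := by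
  obtain ⟨w', h1, h2, h3, h4⟩ := h M F G hRG z' hz' h0
  have hsub : ball w' (79 / 80 * R) ⊆ ball w R := by
    intro y hy
    rw [mem_ball, dist_eq_norm] at hy ⊢
    have : ‖y - w‖ ≤ ‖y - w'‖ + ‖w' - w‖ := norm_sub_le_norm_sub_add_norm_sub y w' w
    linarith
  have hvw : ‖v - w'‖ ≤ R / 40 := by
    have h1' : ‖v - w'‖ ≤ ‖v - w‖ + ‖w - w'‖ := norm_sub_le_norm_sub_add_norm_sub _ w w'
    rw [norm_sub_rev w w'] at h1'
    linarith
  have hw'U : w' ∈ U := hU (hsub (mem_ball_self (by positivity)))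
  have hM0 : 0 < M := (norm_pos_iff.2 h2).trans_le (hRG.bd w' hw'U)
  have hA0 : 0 ≤ A := (norm_nonneg _).trans (hA w (mem_ball_self hR))
  refine (div_state (by positivity) (hsub.trans hU) hRG (hp.mono hsub)
    (fun y hy => hA y (hsub hy)) h2 (by linarith)).trans ?_
  apply mul_le_mul_of_nonneg_left _ (by positivity)
  apply Real.exp_le_exp.2
  linarith

end

end Vale.Agent.P097.H557.W
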